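import Crest.Agent.Helper28.S0355.Defs

/-!
# S0355 — package G: the volume of the zonotope block `Z ι = [-1,1]^ι + [-1,1]·𝟙` (helper88)

`Z` is the a.e.-disjoint union of the cube `[0,2]^ι` and, for each `k`, the shear-preimage of a
box (`z k ∈ [-2,0]`, `z j - z k ∈ [0,2]`); each piece has volume `2^n`.
-/

set_option autoImplicit false
open MeasureTheory Set
open scoped ENNReal

namespace Crest.Agent.Helper88.S0355

variable {ι : Type*} [Fintype ι] [DecidableEq ι]

/-- The body `Z = [-1,1]^ι + [-1,1]·𝟙`, in inequality form. -/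
def Zset (ι : Type*) : Set (ι → ℝ) :=
  {z | (∀ j, |z j| ≤ 2) ∧ ∀ j k, |z j - z k| ≤ 2}

/-- the shear `z ↦ (z k, (z j - z k)_{j ≠ k})`. -/
def shear (k : ι) : (ι → ℝ) →ₗ[ℝ] (ι → ℝ) where
  toFun z := fun j => if j = k then z k else z j - z k
  map_add' x y := by
    funext j; by_cases h : j = k <;> simp [h]; ring
  map_smul' c x := by
    funext j; by_cases h : j = k <;> simp [h]; ring

omit [Fintype ι] in
lemma shear_apply (k : ι) (z : ι → ℝ) (j : ι) :
    shear k z j = if j = k then z k else z j - z k := rfl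

lemma shear_eq_toLin' (k : ι) :
    shear k = Matrix.toLin' (1 + Matrix.replicateCol (Fin 1) (fun j : ι => if j = k then (0:ℝ) else -1)
      * Matrix.replicateRow (Fin 1) (Pi.single k (1:ℝ))) := by
  apply LinearMap.ext
  intro z
  funext j
  rw [shear_apply, Matrix.toLin'_apply, Matrix.add_mulVec, Matrix.one_mulVec, Pi.add_apply]
  have : ((Matrix.replicateCol (Fin 1) (fun j : ι => if j = k then (0:ℝ) else -1)
      * Matrix.replicateRow (Fin 1) (Pi.single k (1:ℝ))).mulVec z) j
      = (if j = k then (0:ℝ) else -1) * z k := by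
    simp [Matrix.mulVec, dotProduct, Matrix.mul_apply, Pi.single_apply]
  rw [this]
  by_cases h : j = k
  · simp [h]
  · simp [h]; ring

lemma det_shear (k : ι) : LinearMap.det (shear k) = 1 := by
  rw [shear_eq_toLin', LinearMap.det_toLin']
  have h := Matrix.det_one_add_replicateCol_mul_replicateRow (ι := Fin 1)
    (fun j : ι => if j = k then (0:ℝ) else -1) (Pi.single k (1:ℝ))
  refine h.trans ?_
  have : (Pi.single k (1:ℝ) ⬝ᵥ fun j : ι => if j = k then (0:ℝ) else -1) = 0 := by
    rw [single_dotProduct]; simp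
  rw [this, add_zero]

/-- pieces: `none ↦ [0,2]^ι`, `some k ↦ {z k ∈ [-2,0], z j - z k ∈ [0,2]}`. -/
def piece : Option ι → Set (ι → ℝ)
  | none => Set.pi univ (fun _ => Icc (0:ℝ) 2)
  | some k => (shear k) ⁻¹' (Set.pi univ (fun j => if j = k then Icc (-2:ℝ) 0 else Icc (0:ℝ) 2))

lemma volume_piece (o : Option ι) : volume (piece o) = 2 ^ Fintype.card ι := by
  cases o with
  | none =>
    simp only [piece]
    rw [volume_pi_pi]
    simp [Real.volume_Icc]
  | some k =>
    simp only [piece]
    rw [Measure.addHaar_preimage_linearMap (μ := volume) (by rw [det_shear]; norm_num), det_shear,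
      volume_pi_pi]
    have : ∀ j : ι, volume (if j = k then Icc (-2:ℝ) 0 else Icc (0:ℝ) 2) = 2 := by
      intro j
      by_cases h : j = k <;> simp [h, Real.volume_Icc]
    simp [this]

lemma measurableSet_piece (o : Option ι) : MeasurableSet (piece (ι := ι) o) := by
  cases o with
  | none =>
    exact MeasurableSet.univ_pi (fun _ => measurableSet_Icc)
  | some k =>
    refine (LinearMap.continuous_of_finiteDimensional (shear k)).measurable ?_
    refine MeasurableSet.univ_pi (fun j => ?_)
    by_cases h : j = k <;> simp [h]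

omit [Fintype ι] in
lemma mem_piece_none (z : ι → ℝ) : z ∈ piece (ι := ι) none ↔ ∀ j, 0 ≤ z j ∧ z j ≤ 2 := by
  simp only [piece, Set.mem_pi, Set.mem_univ, forall_true_left, Set.mem_Icc]

omit [Fintype ι] in
lemma mem_piece_some (k : ι) (z : ι → ℝ) :
    z ∈ piece (some k) ↔ (-2 ≤ z k ∧ z k ≤ 0) ∧ ∀ j, j ≠ k → (0 ≤ z j - z k ∧ z j - z k ≤ 2) := by
  simp only [piece, Set.mem_preimage, Set.mem_pi, Set.mem_univ, forall_true_left, shear_apply]
  constructor
  · intro h
    refine ⟨by simpa using h k, fun j hj => by simpa [hj] using h j⟩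
  · rintro ⟨h1, h2⟩ j
    by_cases hj : j = k
    · subst hj; simpa using h1
    · simpa [hj] using h2 j hj

lemma Zset_eq_iUnion : Zset ι = ⋃ o, piece (ι := ι) o := by
  ext z
  simp only [Set.mem_iUnion]
  constructor
  · rintro ⟨h1, h2⟩
    by_cases hpos : ∀ j, 0 ≤ z j
    · exact ⟨none, (mem_piece_none z).2 fun j => ⟨hpos j, (abs_le.1 (h1 j)).2⟩⟩
    · push Not at hpos
      obtain ⟨j0, hj0⟩ := hpos
      obtain ⟨k, -, hk⟩ := Finset.exists_min_image Finset.univ z ⟨j0, Finset.mem_univ j0⟩
      refine ⟨some k, (mem_piece_some k z).2 ⟨⟨(abs_le.1 (h1 k)).1, ?_⟩, fun j _ => ⟨?_, ?_⟩⟩⟩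
      · exact (hk j0 (Finset.mem_univ _)).trans hj0.le
      · linarith [hk j (Finset.mem_univ _)]
      · exact (abs_le.1 (h2 j k)).2
  · rintro ⟨o, ho⟩
    cases o with
    | none =>
      rw [mem_piece_none] at ho
      refine ⟨fun j => abs_le.2 ⟨by linarith [(ho j).1], (ho j).2⟩, fun j k => abs_le.2 ⟨?_, ?_⟩⟩
      · linarith [(ho j).1, (ho k).2]
      · linarith [(ho j).2, (ho k).1]
    | some k =>
      rw [mem_piece_some] at ho
      obtain ⟨⟨hk1, hk2⟩, h2⟩ := ho
      have key : ∀ j, 0 ≤ z j - z k ∧ z j - z k ≤ 2 := by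
        intro j
        by_cases hj : j = k
        · subst hj; simp
        · exact h2 j hj
      refine ⟨fun j => abs_le.2 ⟨by linarith [(key j).1], by linarith [(key j).2]⟩,
        fun j l => abs_le.2 ⟨?_, ?_⟩⟩
      · linarith [(key j).1, (key l).2]
      · linarith [(key j).2, (key l).1]

lemma volume_coord_eq_zero (k : ι) : volume {z : ι → ℝ | z k = 0} = 0 := by
  have h := Measure.addHaar_submodule (volume : Measure (ι → ℝ))
    (LinearMap.ker (LinearMap.proj (R := ℝ) (φ := fun _ : ι => ℝ) k)) (by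
      intro htop
      have : Pi.single k (1:ℝ) ∈ LinearMap.ker (LinearMap.proj (R := ℝ) (φ := fun _ : ι => ℝ) k) := by
        rw [htop]; trivial
      simp at this)
  convert h using 2
  ext z
  simp

lemma volume_coord_eq (k l : ι) (hkl : k ≠ l) : volume {z : ι → ℝ | z k = z l} = 0 := by
  have h := Measure.addHaar_submodule (volume : Measure (ι → ℝ))
    (LinearMap.ker (LinearMap.proj (R := ℝ) (φ := fun _ : ι => ℝ) k
      - LinearMap.proj (R := ℝ) (φ := fun _ : ι => ℝ) l)) (by
      intro htop
      have : Pi.single k (1:ℝ) ∈ LinearMap.ker (LinearMap.proj (R := ℝ) (φ := fun _ : ι => ℝ) k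
          - LinearMap.proj (R := ℝ) (φ := fun _ : ι => ℝ) l) := by
        rw [htop]; trivial
      simp [Ne.symm hkl] at this)
  convert h using 2
  ext z
  simp [sub_eq_zero]

lemma aedisjoint_piece : Pairwise (Function.onFun (AEDisjoint volume) (piece (ι := ι))) := by
  intro o o' hne
  show volume (piece o ∩ piece o') = 0
  cases o with
  | none =>
    cases o' with
    | none => exact absurd rfl hne
    | some k =>
      refine measure_mono_null ?_ (volume_coord_eq_zero k)
      rintro z ⟨h0, hk⟩
      rw [mem_piece_none] at h0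
      rw [mem_piece_some] at hk
      exact le_antisymm hk.1.2 (h0 k).1
  | some k =>
    cases o' with
    | none =>
      refine measure_mono_null ?_ (volume_coord_eq_zero k)
      rintro z ⟨hk, h0⟩
      rw [mem_piece_none] at h0
      rw [mem_piece_some] at hk
      exact le_antisymm hk.1.2 (h0 k).1
    | some l =>
      have hkl : k ≠ l := fun h => hne (by rw [h])
      refine measure_mono_null ?_ (volume_coord_eq k l hkl)
      rintro z ⟨hk, hl⟩
      rw [mem_piece_some] at hk hl
      have h1 := (hk.2 l (Ne.symm hkl)).1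
      have h2 := (hl.2 k hkl).1
      show z k = z l
      linarith

theorem volume_Zset : volume (Zset ι) = (Fintype.card ι + 1) * 2 ^ Fintype.card ι := by
  rw [Zset_eq_iUnion, measure_iUnion₀ aedisjoint_piece
    (fun o => (measurableSet_piece o).nullMeasurableSet), tsum_fintype]
  simp only [volume_piece, Finset.sum_const, Finset.card_univ, Fintype.card_option, nsmul_eq_mul]
  push_cast
  ring

end Crest.Agent.Helper88.S0355

namespace Crest.Agent.Helper88.S0355

open Crest.Agent.Helper28.S0355

lemma Z_eq_Zset (ι : Type) : Z ι = Zset ι := by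
  ext z
  simp only [Z, Zset, Set.mem_ofPred_eq]
  constructor
  · rintro ⟨h1, h2⟩
    exact ⟨h1, fun j k => abs_le.2 ⟨by linarith [h2 k j], h2 j k⟩⟩
  · rintro ⟨h1, h2⟩
    exact ⟨h1, fun j k => (abs_le.1 (h2 j k)).2⟩

theorem volume_Z (ι : Type) [Fintype ι] :
    volume (Z ι) = ENNReal.ofReal (((Fintype.card ι : ℝ) + 1) * 2 ^ Fintype.card ι) := by
  classical
  rw [Z_eq_Zset, volume_Zset]
  rw [ENNReal.ofReal_mul (by positivity), ENNReal.ofReal_pow (by norm_num),
    ENNReal.ofReal_add (Nat.cast_nonneg _) zero_le_one]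
  simp

end Crest.Agent.Helper88.S0355
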